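import Mathlib
import Vale.Agent.Lib.P295.Defs
import Vale.Agent.Lib.P295.Quadratic
import Vale.Agent.Lib.P295.Affine

namespace Vale.Agent.Results.P295.QuadraticCase

open Vale.Agent.Lib.P295 MvPolynomial

/-- The stable coordinate conjecture holds for polynomials of total degree at most two, in any
number of variables: a stable coordinate of `ℂ[x_1, …, x_n]` of degree `≤ 2` is a coordinate. -/
theorem result (n : ℕ) (f : MvPolynomial (Fin n) ℂ) (hdeg : f.totalDegree ≤ 2)
    (hf : IsStableCoordinate f) : IsCoordinate f := by
  obtain ⟨v, hv⟩ := exists_direction f hdeg (stable_no_crit f hf)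
  exact coordinate_of_direction f v hv

end Vale.Agent.Results.P295.QuadraticCase
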